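import Vale.Agent.P328.Main

/-!
P328: there is an almost-uniform sampler for contingency tables with arbitrary margins.
-/

namespace Vale.Agent.Results.P328.A_sampler

open Vale.Agent.P317 Vale.Agent.P328

theorem result : ∃ (P : Prog) (C d : ℕ), ∀ (m n : ℕ) (r : Fin m → ℕ) (c : Fin n → ℕ),
    1 ≤ m → 1 ≤ n → ∑ i, r i = ∑ j, c j → ∀ ε : ℚ, 0 < ε → ε < 1 →
      (∀ s ∈ (P.run noOracle (tinput r c ε, 0)).support,
        (s.2 : ℝ) ≤ C * (len r c + Real.log (1 / (ε : ℝ)) + 1) ^ d ∧
          toutput m n s.1 ∈ tables r c) ∧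
      tvUniform ((P.run noOracle (tinput r c ε, 0)).map fun s => toutput m n s.1)
        (tables r c) ≤ ε := main_theorem

end Vale.Agent.Results.P328.A_sampler
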